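import Mathlib
import Vale.Agent.P335.Spec
import Vale.Agent.P335.TMix
import Vale.Agent.P335.GOmega

/-!
# P335: the switch chain on simple graphs with given degrees is rapidly mixing for every graphical
degree vector (Kannan-Tetali-Vempala conjecture, simple undirected form)
-/

open scoped Classical

namespace Vale.Agent.Results.P335.FullKTV

open Vale.Agent.P335

/-- For every `n ≥ 4` and every graphical degree vector `d`, the switch chain `P_d` reaches total
variation distance at most `1/4` from every start, and its mixing time is at most `n ^ 6`; in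
particular one polynomial bounds the mixing times of all graphical degree vectors. -/
theorem result :
    (∀ n : ℕ, 4 ≤ n → ∀ d : Fin n → ℕ, Nonempty (Omega d) →
      (mixedTimes d).Nonempty ∧ tMix d ≤ n ^ 6) ∧
    (∃ p : Polynomial ℕ, ∀ n : ℕ, 4 ≤ n → ∀ d : Fin n → ℕ, Nonempty (Omega d) →
      tMix d ≤ p.eval n) := by
  have h : ∀ n : ℕ, 4 ≤ n → ∀ d : Fin n → ℕ, Nonempty (Omega d) →
      (mixedTimes d).Nonempty ∧ tMix d ≤ n ^ 6 := fun n hn d hd =>
    tMix_le_of_gap hn d hd (fun f hf => omega_gap hn d f hf)
  refine ⟨h, Polynomial.X ^ 6, fun n hn d hd => ?_⟩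
  have := (h n hn d hd).2
  simpa using this

end Vale.Agent.Results.P335.FullKTV
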